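import Vale.Agent.P131.Main

open Filter Topology MeasureTheory
open scoped InnerProductSpace ENNReal

namespace Vale.Agent.P131

/-- `H` carries a nonscalar operator without nontrivial hyperinvariant subspaces. -/
def Good (H : Type*) [NormedAddCommGroup H] [NormedSpace ℂ H] : Prop :=
  ∃ T : H →L[ℂ] H, (∀ c : ℂ, T ≠ c • 1) ∧ ∀ M : Submodule ℂ H, IsClosed (M : Set H) →
    (∀ A : H →L[ℂ] H, A * T = T * A → ∀ x ∈ M, A x ∈ M) → M = ⊥ ∨ M = ⊤

lemma Good.transfer {H G : Type*} [NormedAddCommGroup H] [NormedSpace ℂ H] [NormedAddCommGroup G]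
    [NormedSpace ℂ G] (e : H ≃L[ℂ] G) (h : Good H) : Good G := by
  obtain ⟨T, hT1, hT2⟩ := h
  refine ⟨(e : H →L[ℂ] G) ∘L T ∘L (e.symm : G →L[ℂ] H), fun c hc => hT1 c ?_, fun M hM hinv => ?_⟩
  · ext x
    have := congrArg (fun S : G →L[ℂ] G => e.symm (S (e x))) hc
    simpa using this
  · have h1 := hT2 (M.comap (e : H →L[ℂ] G).toLinearMap) (hM.preimage e.continuous)
      (fun A hA x hx => by
        have h2 := hinv ((e : H →L[ℂ] G) ∘L A ∘L (e.symm : G →L[ℂ] H)) (by
          ext y
          have := congrArg (fun S : H →L[ℂ] H => e (S (e.symm y))) hA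
          simpa using this) (e x) hx
        simpa using h2)
    rcases h1 with h1 | h1
    · left
      rw [Submodule.eq_bot_iff] at h1 ⊢
      intro y hy
      have := h1 (e.symm y) (by simpa using hy)
      simpa using this
    · right
      rw [Submodule.eq_top_iff'] at h1 ⊢
      intro y
      simpa using h1 (e.symm y)

lemma Good.not_finiteDimensional {H : Type*} [NormedAddCommGroup H] [NormedSpace ℂ H]
    (h : Good H) : ¬ FiniteDimensional ℂ H := by
  intro hfin
  obtain ⟨T, hT1, hT2⟩ := h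
  have : Nontrivial H := by
    by_contra hs
    rw [not_nontrivial_iff_subsingleton] at hs
    exact hT1 0 (by ext x; exact Subsingleton.elim _ _)
  obtain ⟨c, hc⟩ := Module.End.exists_eigenvalue (T : H →ₗ[ℂ] H)
  obtain ⟨v, hv⟩ := hc.exists_hasEigenvector
  have h1 := hT2 (LinearMap.ker (T - c • (1 : H →L[ℂ] H) : H →L[ℂ] H).toLinearMap)
    (T - c • (1 : H →L[ℂ] H) : H →L[ℂ] H).isClosed_ker (fun A hA x hx => by
      have h2 : T x = c • x := by simpa [sub_eq_zero] using hx
      have h3 : T (A x) = A (T x) := by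
        have := congrArg (fun S : H →L[ℂ] H => S x) hA
        simpa using this.symm
      simp [h3, h2])
  rcases h1 with h1 | h1
  · rw [Submodule.eq_bot_iff] at h1
    apply hv.2
    apply h1
    have := hv.apply_eq_smul
    simpa [sub_eq_zero] using this
  · rw [Submodule.eq_top_iff'] at h1
    apply hT1 c
    ext x
    simpa [sub_eq_zero] using h1 x

lemma exists_equiv_l2 (H : Type*) [NormedAddCommGroup H] [InnerProductSpace ℂ H] [CompleteSpace H]
    [TopologicalSpace.SeparableSpace H] (hH : ¬ FiniteDimensional ℂ H) :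
    Nonempty (H ≃L[ℂ] lp (fun _ : ℕ => ℂ) 2) := by
  obtain ⟨w, b, hb⟩ := exists_hilbertBasis ℂ H
  have horth := b.orthonormal
  have hcount : Countable w := by
    have hd : (Set.univ : Set w).PairwiseDisjoint (fun i => Metric.ball (b i) (1 / 2)) := by
      intro i _ j _ hij
      apply Metric.ball_disjoint_ball
      have h1 : ‖b i - b j‖ ^ 2 = 2 := by
        rw [@norm_sub_sq ℂ, horth.1 i, horth.1 j, horth.2 hij]
        norm_num
      rw [dist_eq_norm]
      nlinarith [norm_nonneg (b i - b j)]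
    have := hd.countable_of_isOpen (fun i _ => Metric.isOpen_ball)
      (fun i _ => Metric.nonempty_ball.2 (by norm_num))
    exact Set.countable_univ_iff.1 this
  have hinf : Infinite w := by
    by_contra hfin
    rw [not_infinite_iff_finite] at hfin
    have := Fintype.ofFinite w
    exact hH (Module.Finite.of_basis b.toOrthonormalBasis.toBasis)
  obtain ⟨d⟩ := nonempty_denumerable w
  set e : ℕ ≃ w := (Denumerable.eqv w).symm with he
  have h1 : Orthonormal ℂ (b ∘ e) := horth.comp e e.injective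
  have h2 : ⊤ ≤ (Submodule.span ℂ (Set.range (b ∘ e))).topologicalClosure := by
    rw [e.surjective.range_comp]
    exact b.dense_span.ge
  exact ⟨(HilbertBasis.mk h1 h2).repr.toContinuousLinearEquiv⟩

lemma exists_model : ∃ (H : Type) (_ : NormedAddCommGroup H) (_ : InnerProductSpace ℂ H)
    (_ : CompleteSpace H) (_ : TopologicalSpace.SeparableSpace H), Good H := by
  letI : MeasurableSpace ℤ_[2] := borel _
  haveI : BorelSpace ℤ_[2] := ⟨rfl⟩
  set μ : Measure ℤ_[2] := Measure.addHaarMeasure ⊤ with hμ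
  haveI : IsProbabilityMeasure μ := ⟨by
    have := Measure.addHaarMeasure_self (G := ℤ_[2]) (K₀ := ⊤)
    simpa using this⟩
  have hτ : Ergodic (fun x : ℤ_[2] => 1 + x) μ := by
    apply ergodic_add_left_of_denseRange_nsmul
    simpa using PadicInt.denseRange_natCast (p := 2)
  set jn : ℤ_[2] → ℕ → ℕ := fun x i => (PadicInt.toZModPow i x).val with hjn
  set jp : ℤ_[2] → ℕ → ℕ := fun x i => 2 ^ i - 1 - jn x i with hjp
  have hn : ∀ x i, jn x i < 2 ^ i := fun x i => ZMod.val_lt _
  have hp : ∀ x i, jp x i < 2 ^ i := fun x i => by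
    have : 0 < 2 ^ i := by positivity
    simp only [hjp]; omega
  have hmn : ∀ i, Measurable fun x => jn x i := by
    intro i
    apply Continuous.measurable
    apply IsLocallyConstant.continuous
    rw [IsLocallyConstant.iff_exists_open]
    intro x
    refine ⟨Metric.ball x ((2 : ℝ) ^ (-i : ℤ)), Metric.isOpen_ball,
      Metric.mem_ball_self (by positivity), fun y hy => ?_⟩
    have h1 : ‖y - x‖ ≤ ((2 : ℕ) : ℝ) ^ (-i : ℤ) := by
      rw [← dist_eq_norm]; exact_mod_cast (Metric.mem_ball.1 hy).le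
    rw [PadicInt.norm_le_pow_iff_mem_span_pow, ← PadicInt.ker_toZModPow, RingHom.mem_ker,
      map_sub, sub_eq_zero] at h1
    simp only [hjn, h1]
  have hmp : ∀ i, Measurable fun x => jp x i := fun i =>
    (measurable_of_countable (fun a : ℕ => 2 ^ i - 1 - a)).comp (hmn i)
  have hne : ∀ᵐ x ∂μ, x ≠ -1 := by
    haveI : (𝓝[≠] (0 : ℤ_[2])).NeBot := by
      rw [← mem_closure_iff_nhdsWithin_neBot]
      have h1 : Tendsto (fun n : ℕ => (2 : ℤ_[2]) ^ n) atTop (𝓝 0) := by
        apply tendsto_pow_atTop_nhds_zero_of_norm_lt_one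
        have := PadicInt.norm_p (p := 2)
        push_cast at this
        rw [this]; norm_num
      refine mem_closure_of_tendsto h1 (Eventually.of_forall fun n => ?_)
      exact pow_ne_zero n two_ne_zero
    exact Measure.ae_ne μ (-1)
  have hratio : ∀ᵐ x ∂μ, ∃ K : ℕ, ∀ n,
      cum (wt (jp x) (jn x)) n / cum (wt (jp (1 + x)) (jn (1 + x))) (n + 1) ≤ K := by
    filter_upwards [hne] with x hx
    obtain ⟨i₀, hi₀⟩ : ∃ i₀, PadicInt.toZModPow i₀ x ≠ PadicInt.toZModPow i₀ (-1) := by
      by_contra h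
      push Not at h
      exact hx (PadicInt.ext_of_toZModPow.1 h)
    have key : ∀ i, i₀ ≤ i → jn (1 + x) i = jn x i + 1 ∧ jn x i + 1 < 2 ^ i := by
      intro i hi
      have h1 : PadicInt.toZModPow i (1 + x) ≠ 0 := by
        intro h
        apply hi₀
        have h2 := PadicInt.cast_toZModPow i₀ i hi (1 + x)
        rw [h, ZMod.cast_zero, map_add, map_one] at h2
        rw [map_neg, map_one]
        exact eq_neg_of_add_eq_zero_right h2.symm
      have h3 : PadicInt.toZModPow i (1 + x) = ((jn x i + 1 : ℕ) : ZMod (2 ^ i)) := by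
        simp [hjn, add_comm]
      have h4 : jn x i + 1 < 2 ^ i := by
        have h5 := hn x i
        by_contra h6
        apply h1
        rw [h3, show jn x i + 1 = 2 ^ i by omega]
        exact ZMod.natCast_self _
      refine ⟨?_, h4⟩
      change (PadicInt.toZModPow i (1 + x)).val = _
      rw [h3, ZMod.val_natCast, Nat.mod_eq_of_lt h4]
    obtain ⟨N, hN⟩ := wt_shift (jp x) (jn x) (jp (1 + x)) (jn (1 + x)) (hp x) (hn x) (hp _) (hn _)
      i₀ (fun i hi => by
        obtain ⟨h1, h2⟩ := key i hi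
        simp only [hjp]; omega) (fun i hi => (key i hi).1)
    exact ratio_bdd (wt_adm _ _ (hp x) (hn x)) (wt_adm _ _ (hp _) (hn _)) N hN
  have hmain := main_L2 μ (fun x => 1 + x) hτ (fun x => cum (wt (jp x) (jn x)))
    (fun x => wt (jp x) (jn x)) (fun x => wt_adm _ _ (hp x) (hn x))
    (fun n => measurable_cum _ (measurable_wt jp jn hmp hmn) n) hratio
  haveI : Fact ((2 : ℝ≥0∞) ≠ ∞) := ⟨by norm_num⟩
  exact ⟨Lp ℂ 2 (μ.prod (Measure.count : Measure ℤ)), inferInstance, inferInstance, inferInstance,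
    inferInstance, hmain⟩

theorem good_of_separable (H : Type*) [NormedAddCommGroup H] [InnerProductSpace ℂ H]
    [CompleteSpace H] [TopologicalSpace.SeparableSpace H] (hH : ¬ FiniteDimensional ℂ H) :
    Good H := by
  obtain ⟨G, _, _, _, _, hG⟩ := exists_model
  obtain ⟨e₁⟩ := exists_equiv_l2 G hG.not_finiteDimensional
  obtain ⟨e₂⟩ := exists_equiv_l2 H hH
  exact hG.transfer (e₁.trans e₂.symm)

end Vale.Agent.P131
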