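import Vale.Agent.P131.Titchmarsh

open Filter Topology

namespace Vale.Agent.P131

namespace Adm

variable {β w : ℤ → ℝ} (H : Adm β w)
include H

set_option maxHeartbeats 2000000 in
theorem half (a b : ℤ → ℂ) (C : ℝ) (hC : 0 < C)
    (ha : ∀ n, ‖a n‖ * β n ≤ C) (hb : ∀ n, ‖b n‖ ≤ C * β n)
    (hsup : ∀ σ : ℝ, 0 < σ → Tendsto (fun l : ℕ => ‖b l‖ / β l * σ ^ l) atTop (𝓝 0))
    (hsum : ∀ m : ℤ, 1 ≤ m → HasSum (fun n => a n * b (n + m)) 0)
    (hunb : ∀ L : ℕ, ∃ l : ℕ, L ≤ l ∧ b l ≠ 0) (k : ℤ) : a k = 0 := by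
  by_contra hak
  have hα : 0 < ‖a k‖ := norm_pos_iff.2 hak
  set α := ‖a k‖ with hαdef
  have hβk := H.βpos k
  have hβ0 := H.βpos 0
  set η : ℝ := min (1 / 2) (β k * α / (72 * C)) with hηdef
  have hη : 0 < η := lt_min (by norm_num) (by positivity)
  have hη1 : η ≤ 1 / 2 := min_le_left _ _
  have hη2 : η ≤ β k * α / (72 * C) := min_le_right _ _
  clear_value η
  obtain ⟨J, hJ⟩ := H.ratio k η hη
  obtain ⟨l₂, hl₂, hbl₂⟩ := hunb (J + k.natAbs + 2)
  have hbb : 0 < ‖b l₂‖ := norm_pos_iff.2 hbl₂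
  set bb := ‖b l₂‖ with hbbdef
  have hβl₂ := H.βpos l₂
  set σ : ℝ := 4 + C / (bb / β l₂) + 4 * (36 * C * β 0 / bb) + 4 * (36 * C ^ 2 / (α * bb))
    with hσdef
  have p1 : 0 < C / (bb / β l₂) := by positivity
  have p2 : 0 < 36 * C * β 0 / bb := by positivity
  have p3 : 0 < 36 * C ^ 2 / (α * bb) := by positivity
  clear_value σ
  have hσ4 : 4 ≤ σ := by linarith
  have hσ0 : 0 < σ := by linarith
  have hσ1 : 1 ≤ σ := by linarith
  obtain ⟨j, hj⟩ := exists_max_of_tendsto_zero (fun l : ℕ => ‖b l‖ / β l * σ ^ l)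
    (fun l => by have := H.βpos l; positivity) (hsup σ hσ0)
  have hjl : l₂ ≤ j := by
    by_contra hlt
    push Not at hlt
    have h1 := hj l₂
    have h2 : ‖b j‖ / β j ≤ C := by rw [div_le_iff₀ (H.βpos j)]; exact hb j
    obtain ⟨d, hd⟩ : ∃ d, l₂ = j + d + 1 := ⟨l₂ - j - 1, by omega⟩
    have h3 : σ ^ j * σ ≤ σ ^ l₂ := by
      rw [← pow_succ]; exact pow_le_pow_right₀ hσ1 (by omega)
    have h4 : C < bb / β l₂ * σ := by
      have : C / (bb / β l₂) < σ := by linarith
      rw [div_lt_iff₀ (by positivity)] at this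
      linarith
    have h5 : 0 < σ ^ j := by positivity
    have h6 : 0 < bb / β l₂ := by positivity
    have h7 : ‖b j‖ / β j * σ ^ j ≤ C * σ ^ j := by gcongr
    have h8 : bb / β l₂ * (σ ^ j * σ) ≤ bb / β l₂ * σ ^ l₂ := by gcongr
    nlinarith
  have hwj := H.wpos j
  have hwj1 := H.wle j
  set c : ℝ := 4 * w j with hcdef
  have hc : 0 < c := by positivity
  clear_value c
  set ρ : ℝ := σ / c with hρdef
  clear_value ρ
  have hρσ : σ / 4 ≤ ρ := by
    rw [hρdef]
    apply div_le_div_of_nonneg_left hσ0.le hc; linarith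
  have hρ1 : 1 ≤ ρ := by linarith
  have hρ0 : 0 < ρ := by linarith
  set G : ℝ := ‖b j‖ / β j * σ ^ j with hGdef
  have hG : 0 ≤ G := by have := H.βpos j; positivity
  clear_value G
  -- the normalised sizes
  set B : ℤ → ℝ := fun l => ‖b l‖ * ρ ^ l with hBdef
  set A : ℤ → ℝ := fun n => ‖a n‖ * ρ ^ (-n) with hAdef
  clear_value A B
  have hB0 : ∀ l, 0 ≤ B l := fun l => by simp only [hBdef]; positivity
  have hA0 : ∀ l, 0 ≤ A l := fun l => by simp only [hAdef]; positivity
  have hBnat : ∀ l : ℕ, B l = ‖b l‖ / β l * σ ^ l * (β l / c ^ l) := by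
    intro l
    have := H.βpos l
    simp only [hBdef, hρdef, zpow_natCast, div_pow]
    field_simp
  have hBG : ∀ l : ℕ, B l ≤ G * (β l / c ^ l) := by
    intro l
    have := H.βpos l
    rw [hBnat]
    exact mul_le_mul_of_nonneg_right (hj l) (by positivity)
  have hBj : B j = G * (β j / c ^ j) := by rw [hGdef]; exact hBnat j
  have hBμ : ∀ l : ℕ, B l ≤ B j * (1 / 4 : ℝ) ^ ((l : ℤ) - j).natAbs := by
    intro l
    refine (hBG l).trans ?_
    rw [hBj, mul_assoc G, hcdef]
    exact mul_le_mul_of_nonneg_left (H.theta_le j l) hG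
  have hAC : ∀ n, A n ≤ C / β n * ρ ^ (-n) := by
    intro n
    simp only [hAdef]
    gcongr
    rw [le_div_iff₀ (H.βpos n)]; exact ha n
  obtain ⟨s₀, hs₀⟩ := exists_max_of_tendsto_zero (fun s : ℕ => A (k - s)) (fun s => hA0 _) (by
    have h1 := (H.tendsto_neg k ρ hρ0).const_mul (C * ρ ^ (-k))
    rw [mul_zero] at h1
    refine squeeze_zero (fun s => hA0 _) (fun s => (hAC _).trans (le_of_eq ?_)) h1
    have := H.βpos (k - s)
    rw [neg_sub, sub_eq_add_neg (s : ℤ) k, zpow_add₀ hρ0.ne', zpow_natCast]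
    field_simp)
  set ν : ℤ := k - s₀ with hνdef
  clear_value ν
  have hAμ : ∀ n, n ≤ k → A n ≤ A ν := by
    intro n hn
    have := hs₀ (k - n).toNat
    have e : k - ((k - n).toNat : ℤ) = n := by omega
    rw [e] at this
    exact this
  have hAk : α * ρ ^ (-k) ≤ A ν := by
    have := hAμ k le_rfl
    rw [hAdef] at this
    rw [hAdef]
    exact this
  have hBl₂ : bb * ρ ^ l₂ ≤ B j := by
    have h1 := hBμ l₂
    have h2 : (1 / 4 : ℝ) ^ ((l₂ : ℤ) - j).natAbs ≤ 1 := pow_le_one₀ (by norm_num) (by norm_num)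
    have h3 : B l₂ = bb * ρ ^ l₂ := by simp [hBdef, hbbdef]
    have := hB0 j
    nlinarith
  have hρk : 0 < ρ ^ (-k) := by positivity
  have hAν : 0 < A ν := lt_of_lt_of_le (by positivity) hAk
  have hBjpos : 0 < B j := lt_of_lt_of_le (by positivity) hBl₂
  -- largeness of the main term
  have big1 : 36 * C * β 0 ≤ B j := by
    have h1 : ρ ≤ ρ ^ l₂ := le_self_pow₀ hρ1 (by omega)
    have h2 : 36 * C * β 0 / bb ≤ ρ := by linarith
    rw [div_le_iff₀ hbb] at h2
    nlinarith
  have big2 : 36 * C ^ 2 * ρ ≤ A ν * B j := by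
    have h1 : ρ ^ (2 : ℤ) ≤ ρ ^ (-k + l₂) := zpow_le_zpow_right₀ hρ1 (by omega)
    rw [zpow_add₀ hρ0.ne', zpow_natCast, zpow_two] at h1
    have h2 : 36 * C ^ 2 / (α * bb) ≤ ρ := by linarith
    rw [div_le_iff₀ (by positivity)] at h2
    calc 36 * C ^ 2 * ρ ≤ (ρ * (α * bb)) * ρ := by gcongr
      _ = (α * bb) * (ρ * ρ) := by ring
      _ ≤ (α * bb) * (ρ ^ (-k) * ρ ^ l₂) := by gcongr
      _ = (α * ρ ^ (-k)) * (bb * ρ ^ l₂) := by ring
      _ ≤ A ν * B j := by gcongr
  -- the shift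
  obtain ⟨m, hm⟩ : ∃ m : ℕ, (m : ℤ) = j - ν := ⟨(j - ν).toNat, by omega⟩
  have hm1 : 1 ≤ m := by omega
  have hsum' : HasSum (fun n => a n * b (n + m) * (ρ : ℂ) ^ m) 0 := by
    simpa using (hsum m (by omega)).mul_right ((ρ : ℂ) ^ m)
  have hnorm : ∀ n, ‖a n * b (n + m) * (ρ : ℂ) ^ m‖ = A n * B (n + m) := by
    intro n
    simp only [hAdef, hBdef, norm_mul, norm_pow, Complex.norm_real, Real.norm_of_nonneg hρ0.le]
    rw [zpow_add₀ hρ0.ne', zpow_natCast, zpow_neg]
    have : ρ ^ n ≠ 0 := by positivity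
    field_simp
  set μ := A ν * B j with hμdef
  have hμ : 0 < μ := by positivity
  set K₁ : ℝ := μ / 36 with hK₁
  set K₂ : ℝ := C * β 0 * A ν + C ^ 2 * ρ with hK₂
  have hK₁0 : 0 ≤ K₁ := by positivity
  have hK₂0 : 0 ≤ K₂ := by positivity
  clear_value K₁ K₂ μ
  have hS := (((hasSum_pow_natAbs (1 / 4) (by norm_num) (by norm_num) ν).mul_left μ).add
    ((hasSum_pow_natAbs (1 / 2) (by norm_num) (by norm_num) k).mul_left K₁)).add
    ((hasSum_pow_natAbs (1 / 2) (by norm_num) (by norm_num) (-m)).mul_left K₂)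
  have key := norm_le_of_hasSum_zero _ _ _ ν hsum' hS (by
    intro n _
    rw [hnorm]
    have q1 : 0 ≤ μ * (1 / 4 : ℝ) ^ (n - ν).natAbs := by positivity
    have q2 : 0 ≤ K₁ * (1 / 2 : ℝ) ^ (n - k).natAbs := by positivity
    have q3 : 0 ≤ K₂ * (1 / 2 : ℝ) ^ (n - -(m : ℤ)).natAbs := by positivity
    by_cases hnk : k < n
    · -- terms to the right of `k`
      obtain ⟨r, hr⟩ : ∃ r : ℕ, n = k + (r + 1 : ℕ) := ⟨(n - k - 1).toNat, by omega⟩
      have e1 : n + m = ((j + (r + 1) + s₀ : ℕ) : ℤ) := by omega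
      have e2 : (n - k).natAbs = r + 1 := by omega
      have h1 := hBG (j + (r + 1) + s₀)
      have h2 := H.theta_anti j (r + 1) s₀
      have h3 := H.ratio_prod k j η (hJ j (by omega)) (r + 1)
      have h4 := hAC n
      have hβn := H.βpos n
      have hβj := H.βpos j
      rw [← hr] at h3
      rw [← hcdef] at h2
      have h5 : ρ ^ (-n) ≤ ρ ^ (-k) * c ^ (r + 1) := by
        rw [hr, neg_add, zpow_add₀ hρ0.ne', zpow_neg ρ ((r + 1 : ℕ) : ℤ), zpow_natCast]
        gcongr
        rw [hρdef, div_pow, inv_div]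
        exact div_le_self (by positivity) (one_le_pow₀ hσ1)
      have h6 : β (j + ((r + 1 : ℕ) : ℤ)) ≤ η ^ (r + 1) * (β n * β j) / β k := by
        rw [le_div_iff₀ hβk]; exact h3
      have h7 : η ^ (r + 1) ≤ (β k * α / (72 * C)) * (1 / 2 : ℝ) ^ r := by
        rw [pow_succ, mul_comm]
        gcongr
      have h8 : A n * B (n + m) ≤ K₁ * (1 / 2 : ℝ) ^ (n - k).natAbs := by
        rw [e1, e2, hK₁, hμdef]
        calc A n * B ((j + (r + 1) + s₀ : ℕ) : ℤ)
            ≤ (C / β n * (ρ ^ (-k) * c ^ (r + 1))) *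
                (G * ((η ^ (r + 1) * (β n * β j) / β k) / c ^ (j + (r + 1)))) := by
              apply mul_le_mul (h4.trans (by gcongr)) _ (hB0 _) (by positivity)
              refine h1.trans (mul_le_mul_of_nonneg_left (h2.trans ?_) hG)
              gcongr
          _ = (C / β k * η ^ (r + 1)) * ρ ^ (-k) * (G * (β j / c ^ j)) := by
              rw [pow_add c j]; field_simp
          _ ≤ (C / β k * ((β k * α / (72 * C)) * (1 / 2 : ℝ) ^ r)) * ρ ^ (-k) * B j := by
              rw [← hBj]; gcongr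
          _ = (α * ρ ^ (-k)) * B j / 36 * (1 / 2 : ℝ) ^ (r + 1) := by
              rw [pow_succ]; field_simp; ring
          _ ≤ A ν * B j / 36 * (1 / 2 : ℝ) ^ (r + 1) := by gcongr
      linarith
    · push Not at hnk
      by_cases hl : 0 ≤ n + m
      · obtain ⟨l, hl'⟩ : ∃ l : ℕ, n + m = l := ⟨(n + m).toNat, by omega⟩
        have e : (n - ν).natAbs = ((l : ℤ) - j).natAbs := by congr 1; omega
        have h8 : A n * B (n + m) ≤ μ * (1 / 4 : ℝ) ^ (n - ν).natAbs := by
          rw [hl', e, hμdef, mul_assoc]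
          exact mul_le_mul (hAμ n hnk) (hBμ l) (hB0 _) hAν.le
        linarith
      · obtain ⟨i, hi⟩ : ∃ i : ℕ, n + m = -i := ⟨(-(n + m)).toNat, by omega⟩
        have e : (n - -(m : ℤ)).natAbs = i := by omega
        have hβi := H.βpos (-i)
        have hBi : B (-i) ≤ C * (β (-i) / ρ ^ i) := by
          simp only [hBdef, zpow_neg, zpow_natCast]
          calc ‖b (-i)‖ * (ρ ^ i)⁻¹ ≤ (C * β (-i)) * (ρ ^ i)⁻¹ := by gcongr; exact hb _
            _ = _ := by ring
        have h8 : A n * B (n + m) ≤ K₂ * (1 / 2 : ℝ) ^ (n - -(m : ℤ)).natAbs := by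
          rw [hi, e, hK₂, add_mul]
          have r1 : 0 ≤ C * β 0 * A ν * (1 / 2 : ℝ) ^ i := by positivity
          have r2 : 0 ≤ C ^ 2 * ρ * (1 / 2 : ℝ) ^ i := by positivity
          rcases H.neg_case ρ hρ1 i m (by omega) hm1 with h | h
          · have : A n * B (-i) ≤ A ν * (C * (β 0 * (1 / 2 : ℝ) ^ i)) :=
              mul_le_mul (hAμ n hnk) (hBi.trans (by gcongr)) (hB0 _) hAν.le
            linarith
          · have en : n = -i - m := by omega
            have hβn := H.βpos n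
            have : A n * B (-i) ≤ C ^ 2 * (ρ * (1 / 2 : ℝ) ^ i) := by
              calc A n * B (-i) ≤ (C / β n * ρ ^ (-n)) * (C * (β (-i) / ρ ^ i)) :=
                    mul_le_mul (hAC n) hBi (hB0 _) (by positivity)
                _ = C ^ 2 * (ρ ^ m * β (-i) / β (-i - m)) := by
                    rw [← en]
                    have : -n = (i : ℤ) + m := by omega
                    rw [this, zpow_add₀ hρ0.ne', zpow_natCast, zpow_natCast]
                    field_simp
                _ ≤ _ := by gcongr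
            linarith
        linarith)
  rw [hnorm] at key
  have e : ν + m = j := by omega
  rw [e] at key
  simp only [sub_self, Int.natAbs_zero, pow_zero, mul_one] at key
  have q2 : 0 ≤ K₁ * (1 / 2 : ℝ) ^ (ν - k).natAbs := by positivity
  have q3 : 0 ≤ K₂ * (1 / 2 : ℝ) ^ (ν - -(m : ℤ)).natAbs := by positivity
  have q4 : 36 * (C * β 0 * A ν) ≤ μ := by
    rw [hμdef]; nlinarith
  have n1 : ((1 : ℝ) + 1 / 4) / (1 - 1 / 4) = 5 / 3 := by norm_num
  have n2 : ((1 : ℝ) + 1 / 2) / (1 - 1 / 2) = 3 := by norm_num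
  rw [n1, n2, ← hμdef] at key
  linarith

/-- mirror image of a weight system -/
lemma mirror : Adm (fun n => (β (-n))⁻¹) (fun n => w (-n - 1)) where
  βpos n := inv_pos.2 (H.βpos _)
  wpos n := H.wpos _
  step n := by
    have h := H.step (-n - 1)
    have e : -(n + 1) = -n - 1 := by ring
    rw [sub_add_cancel] at h
    have h1 := H.βpos (-n - 1)
    have h2 := H.wpos (-n - 1)
    simp only [e, h]
    field_simp
  wle n := H.wle _
  decP n hn := by
    have h := H.decN (-n - 1) (by omega)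
    have e : -(n + 1) - 1 = -n - 1 - 1 := by ring
    simpa only [e] using h
  decN n hn := by
    have h := H.decP (-n - 1) (by omega)
    have e : -(n - 1) - 1 = -n - 1 + 1 := by ring
    simpa only [e] using h
  supP σ hσ := by
    have h := H.supN σ hσ
    refine h.congr (fun l => ?_)
    congr 2; ring
  supN σ hσ := by
    have h := H.supP σ hσ
    refine h.congr (fun l => ?_)
    congr 2; ring

theorem half' (a b : ℤ → ℂ) (C : ℝ) (hC : 0 < C)
    (ha : ∀ n, ‖a n‖ * β n ≤ C) (hb : ∀ n, ‖b n‖ ≤ C * β n)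
    (hsum : ∀ m : ℤ, 1 ≤ m → HasSum (fun n => a n * b (n + m)) 0)
    (hunb : ∀ L : ℕ, ∃ l : ℕ, L ≤ l ∧ b l ≠ 0) (k : ℤ) : a k = 0 := by
  have hb' : ∀ n, ‖b (n + 1)‖ ≤ C * w n * β n := fun n => by
    have := hb (n + 1)
    rw [H.step] at this
    linarith
  refine H.half a (fun n => b (n + 1)) C hC ha (fun n => ?_) (fun σ hσ => ?_) (fun m hm => ?_)
    (fun L => ?_) k
  · refine (hb' n).trans ?_
    have := H.wle n
    have := H.βpos n
    have := H.wpos n
    have : C * w n ≤ C := by nlinarith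
    gcongr
  · have h1 := (H.supP σ hσ).const_mul C
    rw [mul_zero] at h1
    refine squeeze_zero (fun l => by have := H.βpos l; positivity) (fun l => ?_) h1
    rw [← mul_assoc]
    gcongr
    rw [div_le_iff₀ (H.βpos l)]
    exact hb' l
  · simpa only [add_assoc] using hsum (m + 1) (by omega)
  · obtain ⟨l, hl, hbl⟩ := hunb (L + 1)
    refine ⟨l - 1, by omega, ?_⟩
    have e : ((l - 1 : ℕ) : ℤ) + 1 = l := by omega
    simpa only [e] using hbl

/-- The Titchmarsh-type theorem. -/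
theorem titchmarsh (a b : ℤ → ℂ) (C : ℝ) (hC : 0 < C)
    (ha : ∀ n, ‖a n‖ * β n ≤ C) (hb : ∀ n, ‖b n‖ ≤ C * β n)
    (hsum : ∀ m : ℤ, 1 ≤ m → HasSum (fun n => a n * b (n + m)) 0)
    (n l : ℤ) (hnl : n < l) : a n * b l = 0 := by
  by_contra hne
  have han : a n ≠ 0 := left_ne_zero_of_mul hne
  have hbl : b l ≠ 0 := right_ne_zero_of_mul hne
  -- the support of `b` is bounded above
  have h1 : ∃ L : ℕ, ∀ l : ℕ, L ≤ l → b l = 0 := by
    by_contra h
    push Not at h
    exact han (H.half' a b C hC ha hb hsum h n)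
  -- the support of `a` is bounded below
  have h2 : ∃ L : ℕ, ∀ l : ℕ, L ≤ l → a (-l) = 0 := by
    by_contra h
    push Not at h
    apply hbl
    have := H.mirror.half' (fun n => b (-n)) (fun n => a (-n)) C hC (fun n => ?_) (fun n => ?_)
      (fun m hm => ?_) h (-l)
    · simpa using this
    · have := hb (-n)
      have h0 := H.βpos (-n)
      rw [← div_eq_mul_inv, div_le_iff₀ h0]
      exact this
    · have := ha (-n)
      have h0 := H.βpos (-n)
      rw [← div_eq_mul_inv, le_div_iff₀ h0]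
      exact this
    · have h3 := ((Equiv.neg ℤ).trans (Equiv.subRight m)).hasSum_iff.2 (hsum m hm)
      have e : ((fun n => a n * b (n + m)) ∘ ((Equiv.neg ℤ).trans (Equiv.subRight m))) =
          fun n => b (-n) * a (-(n + m)) := by
        funext x
        simp only [Function.comp, Equiv.trans_apply, Equiv.neg_apply, Equiv.subRight_apply,
          sub_add_cancel]
        rw [mul_comm]
        congr 2; ring
      rw [e] at h3
      exact h3
  obtain ⟨L₁, hL₁⟩ := h1
  obtain ⟨L₂, hL₂⟩ := h2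
  obtain ⟨l₀, hl₀, hl₀max⟩ := Int.exists_greatest_of_bdd (P := fun z => b z ≠ 0)
    ⟨L₁, fun z hz => by
      by_contra hlt
      apply hz
      have := hL₁ z.toNat (by omega)
      rwa [Int.toNat_of_nonneg (by omega)] at this⟩ ⟨l, hbl⟩
  obtain ⟨n₀, hn₀, hn₀min⟩ := Int.exists_least_of_bdd (P := fun z => a z ≠ 0)
    ⟨-L₂, fun z hz => by
      by_contra hlt
      apply hz
      have := hL₂ (-z).toNat (by omega)
      rwa [Int.toNat_of_nonneg (by omega), neg_neg] at this⟩ ⟨n, han⟩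
  have h3 := hl₀max l hbl
  have h4 := hn₀min n han
  have h5 := hsum (l₀ - n₀) (by omega)
  have h6 : HasSum (fun x => a x * b (x + (l₀ - n₀))) (a n₀ * b (n₀ + (l₀ - n₀))) := by
    apply hasSum_single n₀
    intro x hx
    by_contra hne'
    have := hn₀min x (left_ne_zero_of_mul hne')
    have := hl₀max _ (right_ne_zero_of_mul hne')
    omega
  have h7 := h6.unique h5
  rw [add_sub_cancel] at h7
  exact mul_ne_zero hn₀ hl₀ h7

end Adm

end Vale.Agent.P131
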