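import Vale.Agent.P131.Ops

open Filter Topology MeasureTheory
open scoped InnerProductSpace ENNReal ComplexConjugate

namespace Vale.Agent.P131

variable {X : Type*} [MeasurableSpace X] (μ : Measure X) [IsProbabilityMeasure μ]

/-- fibrewise orthogonality -/
lemma stepA (β w : X → ℤ → ℝ) (hadm : ∀ x, Adm (β x) (w x)) (hβ : ∀ n, Measurable fun x => β x n)
    (T : Lp ℂ 2 (μ.prod (Measure.count : Measure ℤ)) →L[ℂ] Lp ℂ 2 (μ.prod Measure.count))
    (hT : ∀ f, T f =ᵐ[μ.prod Measure.count] fun y =>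
      ((β y.1 y.2 / β y.1 (y.2 + -1) : ℝ) : ℂ) * f (y.1, y.2 + -1))
    (f g : Lp ℂ 2 (μ.prod (Measure.count : Measure ℤ)))
    (hfg : ∀ A, A * T = T * A → ⟪g, A f⟫_ℂ = 0) :
    ∀ᵐ x ∂μ, ∀ n l : ℤ, n < l → f (x, n) * g (x, l) = 0 := by
  have hβ0 : ∀ x n, 0 < β x n := fun x => (hadm x).βpos
  have hm : ∀ m : ℕ, ∀ᵐ x ∂μ, HasSum (fun n : ℤ => conj (g (x, n)) *
      (((β x n / β x (n + -m) : ℝ) : ℂ) * f (x, n + -m))) 0 := by
    intro m
    have hK : ∀ x n, β x n / β x (n + -m) ≤ 1 := by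
      intro x n
      have h1 := (hadm x).β_add_le (n + -m) 1 m (fun i _ => (hadm x).wle _)
      rw [div_le_one (hβ0 _ _)]
      simpa using h1
    obtain ⟨A₀, hA₀⟩ := exists_op μ β hβ hβ0 id (MeasurePreserving.id μ) (-m) Set.univ
      MeasurableSet.univ 1 (fun x _ n => hK x n)
    set F : X × ℤ → ℂ := fun y => conj (g y) *
      (((β y.1 y.2 / β y.1 (y.2 + -m) : ℝ) : ℂ) * f (y.1, y.2 + -m)) with hF
    have hFi : Integrable F (μ.prod Measure.count) := by
      refine (L2.integrable_inner (𝕜 := ℂ) g (A₀ f)).congr ?_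
      filter_upwards [hA₀ f] with y hy
      rw [hy]
      simp [hF, mul_comm]
    refine ae_hasSum_zero μ F hFi fun E hE => ?_
    obtain ⟨A, hA⟩ := exists_op μ β hβ hβ0 id (MeasurePreserving.id μ) (-m) E hE 1
      (fun x _ n => hK x n)
    have h1 := hfg A (commute_op μ β hβ0 id (MeasurePreserving.id μ) (-m) _ T A hT hA)
    rw [L2.inner_def] at h1
    rw [← integral_indicator (hE.prod MeasurableSet.univ), ← h1]
    apply integral_congr_ae
    filter_upwards [hA f] with y hy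
    rw [hy]
    by_cases hyE : y.1 ∈ E
    · have : y ∈ E ×ˢ (Set.univ : Set ℤ) := ⟨hyE, trivial⟩
      simp [Set.indicator_of_mem this, Set.indicator_of_mem hyE, hF, mul_comm]
    · have : y ∉ E ×ˢ (Set.univ : Set ℤ) := fun h => hyE h.1
      simp [Set.indicator_of_notMem this, Set.indicator_of_notMem hyE]
  filter_upwards [ae_all_iff.2 hm, ae_bdd μ f, ae_bdd μ g] with x hx ⟨C₁, hC₁, hf⟩ ⟨C₂, hC₂, hg⟩
    n l hnl
  have key := (hadm x).titchmarsh (fun n => f (x, n) / (β x n : ℂ))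
    (fun n => (β x n : ℂ) * conj (g (x, n))) (C₁ + C₂) (by positivity) (fun n => ?_) (fun n => ?_)
    (fun m hm => ?_) n l hnl
  · have b1 : ((β x n : ℝ) : ℂ) ≠ 0 := by exact_mod_cast (hβ0 _ _).ne'
    have b2 : ((β x l : ℝ) : ℂ) ≠ 0 := by exact_mod_cast (hβ0 _ _).ne'
    simpa [b1, b2] using key
  · have := hβ0 x n
    rw [norm_div, Complex.norm_real, Real.norm_of_nonneg this.le, div_mul_cancel₀ _ this.ne']
    linarith [hf n]
  · have := hβ0 x n
    rw [norm_mul, Complex.norm_real, Real.norm_of_nonneg this.le, RCLike.norm_conj, mul_comm]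
    gcongr
    linarith [hg n]
  · obtain ⟨m, rfl⟩ := Int.eq_ofNat_of_zero_le (show 0 ≤ m by omega)
    have h3 := (Equiv.addRight (m : ℤ)).hasSum_iff.2 (hx m)
    have e : ((fun n : ℤ => conj (g (x, n)) *
        (((β x n / β x (n + -m) : ℝ) : ℂ) * f (x, n + -m))) ∘ (Equiv.addRight (m : ℤ))) =
        fun n => f (x, n) / (β x n : ℂ) * ((β x (n + m) : ℂ) * conj (g (x, n + m))) := by
      funext n
      simp only [Function.comp, Equiv.coe_addRight, add_neg_cancel_right]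
      push_cast
      ring
    rw [e] at h3
    exact h3

lemma stepB (τ : X → X) (hτ : MeasurePreserving τ μ μ)
    (β w : X → ℤ → ℝ) (hadm : ∀ x, Adm (β x) (w x)) (hβ : ∀ n, Measurable fun x => β x n)
    (hratio : ∀ᵐ x ∂μ, ∃ K : ℕ, ∀ n, β x n / β (τ x) (n + 1) ≤ K)
    (T : Lp ℂ 2 (μ.prod (Measure.count : Measure ℤ)) →L[ℂ] Lp ℂ 2 (μ.prod Measure.count))
    (hT : ∀ f, T f =ᵐ[μ.prod Measure.count] fun y =>
      ((β y.1 y.2 / β y.1 (y.2 + -1) : ℝ) : ℂ) * f (y.1, y.2 + -1))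
    (g : Lp ℂ 2 (μ.prod (Measure.count : Measure ℤ))) (p : ℕ) :
    ∀ f : Lp ℂ 2 (μ.prod (Measure.count : Measure ℤ)), (∀ A, A * T = T * A → ⟪g, A f⟫_ℂ = 0) →
    ∀ᵐ x ∂μ, ∀ n l : ℤ, n < l → f (τ^[p] x, n + p) * g (x, l) = 0 := by
  have hβ0 : ∀ x n, 0 < β x n := fun x => (hadm x).βpos
  induction p with
  | zero =>
    intro f hf
    simpa using stepA μ β w hadm hβ T hT f g hf
  | succ p ih =>
    intro f hf
    have hK : ∀ K : ℕ, ∀ᵐ x ∂μ, (∀ n, β (τ^[p] x) n / β (τ (τ^[p] x)) (n + 1) ≤ K) →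
        ∀ n l : ℤ, n < l → f (τ^[p + 1] x, n + (p + 1 : ℕ)) * g (x, l) = 0 := by
      intro K
      set E : Set X := {x | ∀ n, β x n / β (τ x) (n + 1) ≤ K} with hEdef
      have hE : MeasurableSet E := by
        rw [hEdef, Set.ofPred_forall]
        refine MeasurableSet.iInter fun n => ?_
        exact measurableSet_le ((hβ n).div ((hβ (n + 1)).comp hτ.measurable)) measurable_const
      obtain ⟨V, hV⟩ := exists_op μ β hβ hβ0 τ hτ 1 E hE K (fun x hx => hx)
      have hVT := commute_op μ β hβ0 τ hτ 1 _ T V hT hV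
      have h1 := ih (V f) (fun A hA => hf (A * V) (by
        rw [mul_assoc, hVT, ← mul_assoc, hA, mul_assoc]))
      have h2 := (hτ.iterate p).quasiMeasurePreserving.ae (ae_forall_of_ae_prod μ (hV f))
      filter_upwards [h1, h2] with x hx1 hx2 hxE n l hnl
      have h3 := hx1 n l hnl
      rw [hx2] at h3
      have hmem : τ^[p] x ∈ E := hxE
      have b1 : ((β (τ^[p] x) (n + p) : ℝ) : ℂ) ≠ 0 := by exact_mod_cast (hβ0 _ _).ne'
      have b2 : ((β (τ (τ^[p] x)) (n + p + 1) : ℝ) : ℂ) ≠ 0 := by exact_mod_cast (hβ0 _ _).ne'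
      rw [Function.iterate_succ_apply']
      have e : n + ((p + 1 : ℕ) : ℤ) = n + p + 1 := by push_cast; ring
      rw [e]
      simpa [Set.indicator_of_mem hmem, b1, b2] using h3
    have h2 := (hτ.iterate p).quasiMeasurePreserving.ae hratio
    filter_upwards [ae_all_iff.2 hK, h2] with x hx ⟨K, hK'⟩
    exact hx K hK'

lemma exists_fibre (f : Lp ℂ 2 (μ.prod (Measure.count : Measure ℤ))) (hf : f ≠ 0) :
    ∃ n : ℤ, μ {x | f (x, n) ≠ 0} ≠ 0 := by
  by_contra h
  push Not at h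
  apply hf
  rw [Lp.eq_zero_iff_ae_eq_zero]
  have hm : MeasurableSet {y : X × ℤ | f y = 0} :=
    (Lp.stronglyMeasurable f).measurable (measurableSet_singleton 0)
  refine (Measure.ae_prod_iff_ae_ae hm).2 ?_
  have h1 : ∀ n : ℤ, ∀ᵐ x ∂μ, f (x, n) = 0 := fun n => h n
  filter_upwards [ae_all_iff.2 h1] with x hx
  exact Eventually.of_forall hx

theorem main_L2 (τ : X → X) (hτ : Ergodic τ μ)
    (β w : X → ℤ → ℝ) (hadm : ∀ x, Adm (β x) (w x)) (hβ : ∀ n, Measurable fun x => β x n)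
    (hratio : ∀ᵐ x ∂μ, ∃ K : ℕ, ∀ n, β x n / β (τ x) (n + 1) ≤ K) :
    ∃ T : Lp ℂ 2 (μ.prod (Measure.count : Measure ℤ)) →L[ℂ] Lp ℂ 2 (μ.prod Measure.count),
      (∀ c : ℂ, T ≠ c • 1) ∧
      ∀ M : Submodule ℂ (Lp ℂ 2 (μ.prod (Measure.count : Measure ℤ))),
        IsClosed (M : Set (Lp ℂ 2 (μ.prod (Measure.count : Measure ℤ)))) →
        (∀ A : Lp ℂ 2 (μ.prod (Measure.count : Measure ℤ)) →L[ℂ] Lp ℂ 2 (μ.prod Measure.count),
          A * T = T * A → ∀ x ∈ M, A x ∈ M) → M = ⊥ ∨ M = ⊤ := by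
  have hβ0 : ∀ x n, 0 < β x n := fun x => (hadm x).βpos
  obtain ⟨T, hT'⟩ := exists_op μ β hβ hβ0 id (MeasurePreserving.id μ) (-1) Set.univ
    MeasurableSet.univ 1 (fun x _ n => by
      have h1 := (hadm x).β_add_le (n + -1) 1 1 (fun i _ => (hadm x).wle _)
      simp only [id]
      rw [div_le_one (hβ0 _ _)]
      simpa using h1)
  have hT : ∀ f, T f =ᵐ[μ.prod Measure.count] fun y =>
      ((β y.1 y.2 / β y.1 (y.2 + -1) : ℝ) : ℂ) * f (y.1, y.2 + -1) := by
    intro f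
    filter_upwards [hT' f] with y hy
    simpa using hy
  refine ⟨T, fun c hc => ?_, fun M hM hinv => ?_⟩
  · have hs : MeasurableSet ((Set.univ : Set X) ×ˢ ({0} : Set ℤ)) :=
      MeasurableSet.univ.prod (measurableSet_singleton 0)
    have hfin : (μ.prod Measure.count) ((Set.univ : Set X) ×ˢ ({0} : Set ℤ)) ≠ ∞ := by
      rw [Measure.prod_prod]; simp
    set f : Lp ℂ 2 (μ.prod (Measure.count : Measure ℤ)) := indicatorConstLp 2 hs hfin 1 with hf
    have h1 := ae_forall_of_ae_prod μ (indicatorConstLp_coeFn (p := 2) (hs := hs) (hμs := hfin)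
      (c := (1 : ℂ)))
    have h2 := ae_forall_of_ae_prod μ (hT f)
    have h3 := ae_forall_of_ae_prod μ (Lp.coeFn_smul c f)
    have h4 : T f = c • f := by rw [hc]; simp
    obtain ⟨x, hx1, hx2, hx3⟩ := (h1.and (h2.and h3)).exists
    have a1 := hx1 0
    have a2 := hx1 1
    have a3 := hx2 1
    have a4 := hx3 1
    rw [← hf] at a1 a2
    rw [h4, a4] at a3
    simp only [Pi.smul_apply, add_neg_cancel, smul_eq_mul] at a3
    rw [a1, a2] at a3
    have b1 : ((β x 1 : ℝ) : ℂ) ≠ 0 := by exact_mod_cast (hβ0 _ _).ne'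
    have b2 : ((β x 0 : ℝ) : ℂ) ≠ 0 := by exact_mod_cast (hβ0 _ _).ne'
    simp at a3
    exact div_ne_zero b1 b2 a3.symm
  · by_contra hcon
    push Not at hcon
    obtain ⟨hbot, htop⟩ := hcon
    obtain ⟨f, hfM, hf0⟩ := Submodule.exists_mem_ne_zero_of_ne_bot hbot
    have : CompleteSpace M := hM.completeSpace_coe
    have horth : Mᗮ ≠ ⊥ := fun h => htop (Submodule.orthogonal_eq_bot_iff.1 h)
    obtain ⟨g, hgM, hg0⟩ := Submodule.exists_mem_ne_zero_of_ne_bot horth
    have hfg : ∀ A, A * T = T * A → ⟪g, A f⟫_ℂ = 0 := fun A hA =>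
      Submodule.inner_left_of_mem_orthogonal (hinv A hA f hfM) hgM
    have hall := ae_all_iff.2 fun p =>
      stepB μ τ hτ.toMeasurePreserving β w hadm hβ hratio T hT g p f hfg
    obtain ⟨n₀, hn₀⟩ := exists_fibre μ f hf0
    obtain ⟨l₀, hl₀⟩ := exists_fibre μ g hg0
    set E : Set X := {x | f (x, n₀) ≠ 0} with hEdef
    have hE : MeasurableSet E := by
      have : Measurable fun x => f (x, n₀) :=
        (Lp.stronglyMeasurable f).measurable.comp measurable_prodMk_right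
      exact (this (measurableSet_singleton 0)).compl
    set p₀ : ℕ := (n₀ - l₀).natAbs + 1 with hp₀
    set U : Set X := ⋃ p : ℕ, τ^[p₀ + p] ⁻¹' E with hU
    have hUm : MeasurableSet U :=
      MeasurableSet.iUnion fun p => (hτ.toMeasurePreserving.iterate _).measurable hE
    have hsub : τ ⁻¹' U ⊆ U := by
      intro x hx
      simp only [hU, Set.mem_preimage, Set.mem_iUnion] at hx ⊢
      obtain ⟨p, hp⟩ := hx
      exact ⟨p + 1, by rw [← add_assoc, Function.iterate_succ_apply]; exact hp⟩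
    rcases hτ.ae_empty_or_univ_of_preimage_ae_le hUm.nullMeasurableSet hsub.eventuallyLE with
      h | h
    · apply hn₀
      have h1 : μ U = 0 := by simpa using h
      have h2 : τ^[p₀] ⁻¹' E ⊆ U := fun x hx => Set.mem_iUnion.2 ⟨0, hx⟩
      rw [← (hτ.toMeasurePreserving.iterate p₀).measure_preimage hE.nullMeasurableSet]
      exact measure_mono_null h2 h1
    · apply hl₀
      have h1 : ∀ᵐ x ∂μ, x ∈ U := by
        have h' : μ Uᶜ = 0 := by simpa using h
        exact h'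
      have h2 : ∀ᵐ x ∂μ, g (x, l₀) = 0 := by
        filter_upwards [hall, h1] with x hx hxU
        obtain ⟨p, hp⟩ := Set.mem_iUnion.1 hxU
        have h3 := hx (p₀ + p) (n₀ - ((p₀ + p : ℕ) : ℤ)) l₀ (by omega)
        rw [sub_add_cancel] at h3
        exact (mul_eq_zero.1 h3).resolve_left hp
      exact h2

end Vale.Agent.P131
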