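import Vale.Agent.P131.Weights

open Filter Topology MeasureTheory
open scoped InnerProductSpace ENNReal

namespace Vale.Agent.P131

lemma exists_WC {Y : Type*} [MeasurableSpace Y] (ν : Measure Y) (φ : Y → ℂ) (hφ : Measurable φ)
    (K : ℝ) (hK : ∀ y, ‖φ y‖ ≤ K) (τ : Y → Y) (hτ : MeasurePreserving τ ν ν) :
    ∃ A : Lp ℂ 2 ν →L[ℂ] Lp ℂ 2 ν, ∀ f : Lp ℂ 2 ν, A f =ᵐ[ν] fun y => φ y * f (τ y) := by
  have hm : MemLp φ ∞ ν := memLp_top_of_bound hφ.aestronglyMeasurable K (Eventually.of_forall hK)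
  refine ⟨((ContinuousLinearMap.mul ℂ ℂ).holderL ν ∞ 2 2 hm.toLp).comp
    (Lp.compMeasurePreservingₗᵢ ℂ τ hτ).toContinuousLinearMap, fun f => ?_⟩
  have h1 := (ContinuousLinearMap.mul ℂ ℂ).coeFn_holder (r := 2) hm.toLp
    (Lp.compMeasurePreserving τ hτ f)
  have h2 := Lp.coeFn_compMeasurePreserving f hτ
  filter_upwards [h1, h2, hm.coeFn_toLp] with y hy1 hy2 hy3
  refine Eq.trans hy1 ?_
  rw [hy2, hy3]
  rfl

variable {X : Type*} [MeasurableSpace X] (μ : Measure X) [IsProbabilityMeasure μ]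

lemma mp_shift (ρ : X → X) (hρ : MeasurePreserving ρ μ μ) (q : ℤ) :
    MeasurePreserving (fun y : X × ℤ => (ρ y.1, y.2 + q)) (μ.prod Measure.count)
      (μ.prod Measure.count) :=
  hρ.prod (measurePreserving_add_right Measure.count q)

lemma measurable_beta (β : X → ℤ → ℝ) (hβ : ∀ n, Measurable fun x => β x n) :
    Measurable fun y : X × ℤ => β y.1 y.2 :=
  measurable_from_prod_countable_left hβ

/-- existence of the intertwining operators -/
lemma exists_op (β : X → ℤ → ℝ) (hβ : ∀ n, Measurable fun x => β x n) (hβ0 : ∀ x n, 0 < β x n)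
    (ρ : X → X) (hρ : MeasurePreserving ρ μ μ) (q : ℤ) (E : Set X) (hE : MeasurableSet E) (K : ℝ)
    (hK : ∀ x ∈ E, ∀ n, β x n / β (ρ x) (n + q) ≤ K) :
    ∃ A : Lp ℂ 2 (μ.prod (Measure.count : Measure ℤ)) →L[ℂ] Lp ℂ 2 (μ.prod Measure.count),
      ∀ f, A f =ᵐ[μ.prod Measure.count] fun y =>
        E.indicator (fun _ => (1 : ℂ)) y.1 * ((β y.1 y.2 / β (ρ y.1) (y.2 + q) : ℝ) : ℂ) *
          f (ρ y.1, y.2 + q) := by
  refine exists_WC _ _ ?_ (max K 0) ?_ _ (mp_shift μ ρ hρ q)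
  · apply Measurable.mul
    · exact (measurable_const.indicator hE).comp measurable_fst
    · apply Complex.measurable_ofReal.comp
      exact (measurable_beta β hβ).div ((measurable_beta β hβ).comp (mp_shift μ ρ hρ q).measurable)
  · rintro ⟨x, n⟩
    by_cases hx : x ∈ E
    · have h1 := hK x hx n
      have h2 : 0 ≤ β x n / β (ρ x) (n + q) := (div_pos (hβ0 _ _) (hβ0 _ _)).le
      simp only [Set.indicator_of_mem hx, one_mul, Complex.norm_real, Real.norm_of_nonneg h2]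
      exact h1.trans (le_max_left _ _)
    · simp [Set.indicator_of_notMem hx]

/-- the intertwining operators commute with the basic operator -/
lemma commute_op (β : X → ℤ → ℝ) (hβ0 : ∀ x n, 0 < β x n)
    (ρ : X → X) (hρ : MeasurePreserving ρ μ μ) (q : ℤ) (c : X → ℂ)
    (T A : Lp ℂ 2 (μ.prod (Measure.count : Measure ℤ)) →L[ℂ] Lp ℂ 2 (μ.prod Measure.count))
    (hT : ∀ f, T f =ᵐ[μ.prod Measure.count] fun y =>
      ((β y.1 y.2 / β y.1 (y.2 + -1) : ℝ) : ℂ) * f (y.1, y.2 + -1))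
    (hA : ∀ f, A f =ᵐ[μ.prod Measure.count] fun y =>
      c y.1 * ((β y.1 y.2 / β (ρ y.1) (y.2 + q) : ℝ) : ℂ) * f (ρ y.1, y.2 + q)) :
    A * T = T * A := by
  refine ContinuousLinearMap.ext fun f => Lp.ext ?_
  have h1 := (mp_shift μ ρ hρ q).quasiMeasurePreserving.ae (hT f)
  have h2 := (mp_shift μ id (MeasurePreserving.id μ) (-1)).quasiMeasurePreserving.ae (hA f)
  filter_upwards [hA (T f), hT (A f), h1, h2] with y a1 a2 a3 a4
  change A (T f) y = T (A f) y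
  simp only [id] at a3 a4
  rw [a1, a2, a3, a4]
  have e : y.2 + q + -1 = y.2 + -1 + q := by ring
  rw [e]
  have b1 : ((β (ρ y.1) (y.2 + q) : ℝ) : ℂ) ≠ 0 := by exact_mod_cast (hβ0 _ _).ne'
  have b2 : ((β y.1 (y.2 + -1) : ℝ) : ℂ) ≠ 0 := by exact_mod_cast (hβ0 _ _).ne'
  have b3 : ((β (ρ y.1) (y.2 + -1 + q) : ℝ) : ℂ) ≠ 0 := by exact_mod_cast (hβ0 _ _).ne'
  push_cast
  field_simp

lemma ae_forall_of_ae_prod {p : X × ℤ → Prop} (h : ∀ᵐ y ∂μ.prod (Measure.count : Measure ℤ), p y) :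
    ∀ᵐ x ∂μ, ∀ n, p (x, n) := by
  filter_upwards [Measure.ae_ae_of_ae_prod h] with x hx
  exact Measure.ae_count_iff.1 hx

lemma ae_hasSum_zero (F : X × ℤ → ℂ) (hF : Integrable F (μ.prod Measure.count))
    (h0 : ∀ E, MeasurableSet E → ∫ y in E ×ˢ Set.univ, F y ∂(μ.prod Measure.count) = 0) :
    ∀ᵐ x ∂μ, HasSum (fun n => F (x, n)) 0 := by
  have h1 : (fun x => ∫ n, F (x, n) ∂Measure.count) =ᵐ[μ] 0 := by
    apply hF.integral_prod_left.ae_eq_zero_of_forall_setIntegral_eq_zero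
    intro E hE _
    have := h0 E hE
    rw [setIntegral_prod _ hF.integrableOn] at this
    simpa using this
  filter_upwards [h1, hF.prod_right_ae] with x hx1 hx2
  have hs : Summable fun n => F (x, n) := (integrable_count_iff.1 hx2).of_norm
  rw [integral_countable hx2] at hx1
  simp only [Measure.real, Measure.count_singleton, ENNReal.toReal_one, one_smul,
    Pi.zero_apply] at hx1
  exact hx1 ▸ hs.hasSum

lemma ae_bdd (f : Lp ℂ 2 (μ.prod (Measure.count : Measure ℤ))) :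
    ∀ᵐ x ∂μ, ∃ C : ℝ, 0 < C ∧ ∀ n, ‖f (x, n)‖ ≤ C := by
  have h := (L2.integrable_inner (𝕜 := ℂ) f f).prod_right_ae
  filter_upwards [h] with x hx
  have hs := integrable_count_iff.1 hx
  have hnn : ∀ n : ℤ, 0 ≤ ‖⟪f (x, n), f (x, n)⟫_ℂ‖ := fun n => norm_nonneg _
  have hT : 0 ≤ ∑' n : ℤ, ‖⟪f (x, n), f (x, n)⟫_ℂ‖ := tsum_nonneg hnn
  refine ⟨1 + ∑' n : ℤ, ‖⟪f (x, n), f (x, n)⟫_ℂ‖, by linarith, fun n => ?_⟩
  have h1 := hs.le_tsum n (fun m _ => hnn m)
  have h2 : ‖⟪f (x, n), f (x, n)⟫_ℂ‖ = ‖f (x, n)‖ ^ 2 := by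
    rw [inner_self_eq_norm_sq_to_K]; simp
  rw [h2] at h1
  nlinarith [norm_nonneg (f (x, n))]

end Vale.Agent.P131
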