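import Mathlib

/-!
A Titchmarsh-type convolution lemma for two-sided sequences with rapidly decaying weights.
-/

open Filter Topology

namespace Vale.Agent.P131

/-- Admissible two-sided weight systems. -/
structure Adm (β w : ℤ → ℝ) : Prop where
  βpos : ∀ n, 0 < β n
  wpos : ∀ n, 0 < w n
  step : ∀ n, β (n + 1) = w n * β n
  wle : ∀ n, w n ≤ 1
  decP : ∀ n, 0 ≤ n → 16 * w (n + 1) ≤ w n
  decN : ∀ n, n < 0 → 16 * w (n - 1) ≤ w n
  supP : ∀ σ : ℝ, 0 < σ → Tendsto (fun l : ℕ => w l * σ ^ l) atTop (𝓝 0)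
  supN : ∀ σ : ℝ, 0 < σ → Tendsto (fun l : ℕ => w (-1 - l) * σ ^ l) atTop (𝓝 0)

lemma exists_max_of_tendsto_zero (f : ℕ → ℝ) (h0 : ∀ n, 0 ≤ f n)
    (ht : Tendsto f atTop (𝓝 0)) : ∃ j, ∀ l, f l ≤ f j := by
  by_cases h : ∀ n, f n = 0
  · exact ⟨0, fun l => by rw [h l, h 0]⟩
  · push Not at h
    obtain ⟨n₀, hn₀⟩ := h
    have hpos : 0 < f n₀ := lt_of_le_of_ne (h0 n₀) (Ne.symm hn₀)
    have hev : ∀ᶠ l in atTop, f l < f n₀ := ht.eventually (gt_mem_nhds hpos)
    obtain ⟨N, hN⟩ := eventually_atTop.1 hev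
    obtain ⟨j, -, hj⟩ := (Finset.range (N + n₀ + 1)).exists_max_image f
      ⟨0, by simp⟩
    refine ⟨j, fun l => ?_⟩
    by_cases hl : l < N + n₀ + 1
    · exact hj l (Finset.mem_range.2 hl)
    · have h1 : f l < f n₀ := hN l (by omega)
      have h2 : f n₀ ≤ f j := hj n₀ (Finset.mem_range.2 (by omega))
      linarith

lemma hasSum_pow_natAbs (r : ℝ) (h0 : 0 ≤ r) (h1 : r < 1) (c : ℤ) :
    HasSum (fun n : ℤ => r ^ (n - c).natAbs) ((1 + r) / (1 - r)) := by
  have hg := hasSum_geometric_of_lt_one h0 h1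
  have h2 : HasSum (fun n : ℕ => r ^ (n + 1)) (r * (1 - r)⁻¹) := by
    simpa [pow_succ, mul_comm] using hg.mul_left r
  have h3 : HasSum (fun n : ℤ => r ^ n.natAbs) ((1 - r)⁻¹ + r * (1 - r)⁻¹) := by
    apply HasSum.of_nat_of_neg_add_one
    · simpa using hg
    · have e : (fun n : ℕ => r ^ (-((n : ℤ) + 1)).natAbs) = fun n : ℕ => r ^ (n + 1) := by
        funext n
        congr 1
      exact e ▸ h2
  have h4 : (1 - r)⁻¹ + r * (1 - r)⁻¹ = (1 + r) / (1 - r) := by
    rw [div_eq_mul_inv]; ring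
  rw [h4] at h3
  have h5 := (Equiv.subRight c).hasSum_iff.2 h3
  have e : ((fun n : ℤ => r ^ n.natAbs) ∘ (Equiv.subRight c)) = fun n : ℤ => r ^ (n - c).natAbs := by
    funext n; simp
  rw [e] at h5
  exact h5

lemma norm_le_of_hasSum_zero (t : ℤ → ℂ) (B : ℤ → ℝ) (S : ℝ) (ν : ℤ) (ht : HasSum t 0)
    (hB : HasSum B S) (hle : ∀ n, n ≠ ν → ‖t n‖ ≤ B n) : ‖t ν‖ + B ν ≤ S := by
  have h1 : HasSum (Function.update t ν 0) (0 - t ν + 0) := ht.update ν 0
  have h2 : HasSum (Function.update B ν 0) (0 - B ν + S) := hB.update ν 0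
  have h3 : ∀ n, ‖Function.update t ν 0 n‖ ≤ Function.update B ν 0 n := by
    intro n
    by_cases hn : n = ν
    · subst hn; simp
    · rw [Function.update_of_ne hn, Function.update_of_ne hn]; exact hle n hn
  have h4 : ‖0 - t ν + 0‖ ≤ 0 - B ν + S := HasSum.norm_le_of_bounded h1 h2 h3
  rw [zero_sub, add_zero, norm_neg] at h4
  linarith

namespace Adm

variable {β w : ℤ → ℝ} (H : Adm β w)
include H

lemma antiP (j : ℤ) (hj : 0 ≤ j) (r : ℕ) : 16 ^ r * w (j + r) ≤ w j := by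
  induction r with
  | zero => simp
  | succ r ih =>
    have h := H.decP (j + r) (by positivity)
    have e : j + ((r + 1 : ℕ) : ℤ) = j + r + 1 := by push_cast; ring
    rw [e, pow_succ]
    have : (0 : ℝ) < 16 ^ r := by positivity
    nlinarith

lemma antiN (j : ℤ) (hj : j < 0) (r : ℕ) : 16 ^ r * w (j - r) ≤ w j := by
  induction r with
  | zero => simp
  | succ r ih =>
    have h := H.decN (j - r) (by omega)
    have e : j - ((r + 1 : ℕ) : ℤ) = j - r - 1 := by push_cast; ring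
    rw [e, pow_succ]
    have : (0 : ℝ) < 16 ^ r := by positivity
    nlinarith

lemma antiP' (j : ℤ) (hj : 0 ≤ j) (r : ℕ) : w (j + r) ≤ w j := by
  have h := H.antiP j hj r
  have h1 : (1 : ℝ) ≤ 16 ^ r := one_le_pow₀ (by norm_num)
  have := H.wpos (j + r)
  nlinarith

lemma antiN' (j : ℤ) (hj : j < 0) (r : ℕ) : w (j - r) ≤ w j := by
  have h := H.antiN j hj r
  have h1 : (1 : ℝ) ≤ 16 ^ r := one_le_pow₀ (by norm_num)
  have := H.wpos (j - r)
  nlinarith

/-- forward product bound -/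
lemma β_add_le (j : ℤ) (x : ℝ) (r : ℕ) (hx : ∀ i : ℕ, i < r → w (j + i) ≤ x) :
    β (j + r) ≤ x ^ r * β j := by
  induction r with
  | zero => simp
  | succ r ih =>
    have e : j + ((r + 1 : ℕ) : ℤ) = j + r + 1 := by push_cast; ring
    rw [e, H.step, pow_succ]
    have h1 := ih (fun i hi => hx i (by omega))
    have h2 := hx r (by omega)
    have h3 := H.wpos (j + r)
    have h4 := H.βpos (j + r)
    calc w (j + r) * β (j + r) ≤ x * (x ^ r * β j) :=
          mul_le_mul h2 h1 h4.le (h3.le.trans h2)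
      _ = _ := by ring

/-- forward product lower bound -/
lemma le_β_add (j : ℤ) (x : ℝ) (hx0 : 0 ≤ x) (r : ℕ) (hx : ∀ i : ℕ, i < r → x ≤ w (j + i)) :
    x ^ r * β j ≤ β (j + r) := by
  induction r with
  | zero => simp
  | succ r ih =>
    have e : j + ((r + 1 : ℕ) : ℤ) = j + r + 1 := by push_cast; ring
    rw [e, H.step, pow_succ]
    have h1 := ih (fun i hi => hx i (by omega))
    have h2 := hx r (by omega)
    have h3 := H.wpos (j + r)
    have h4 := H.βpos j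
    calc x ^ r * x * β j = x * (x ^ r * β j) := by ring
      _ ≤ w (j + r) * β (j + r) := mul_le_mul h2 h1 (by positivity) h3.le

lemma ratio (k : ℤ) (η : ℝ) (hη : 0 < η) :
    ∃ J : ℕ, ∀ j : ℕ, J ≤ j → ∀ i : ℕ, w (j + i) ≤ η * w (k + i) := by
  have hk := H.wpos k
  have hm : 0 < min η (η * w k) := lt_min hη (by positivity)
  obtain ⟨N, hN⟩ := exists_pow_lt_of_lt_one hm (by norm_num : (1 / 16 : ℝ) < 1)
  refine ⟨N + k.natAbs, fun j hj i => ?_⟩
  have h16 : (1 / 16 : ℝ) ^ N * 16 ^ N = 1 := by rw [← mul_pow]; norm_num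
  have hN1 : (1 / 16 : ℝ) ^ N < η := lt_of_lt_of_le hN (min_le_left _ _)
  have hN2 : (1 / 16 : ℝ) ^ N < η * w k := lt_of_lt_of_le hN (min_le_right _ _)
  have hp : (0 : ℝ) < (1 / 16 : ℝ) ^ N := by positivity
  by_cases hki : 0 ≤ k + i
  · obtain ⟨d, hd⟩ : ∃ d : ℕ, (j : ℤ) + i = k + i + N + d := ⟨(j - k - N).toNat, by omega⟩
    have h1 := H.antiP (k + i) hki N
    have h2 := H.antiP' (k + i + N) (by positivity) d
    rw [hd]
    have h3 := H.wpos (k + i)
    have h4 : w (k + i + N) ≤ (1 / 16 : ℝ) ^ N * w (k + i) := by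
      calc w (k + i + N) = (1 / 16 : ℝ) ^ N * (16 ^ N * w (k + i + N)) := by
            rw [← mul_assoc, h16, one_mul]
        _ ≤ _ := by gcongr
    nlinarith
  · obtain ⟨d, hd⟩ : ∃ d : ℕ, (j : ℤ) + i = 0 + N + d := ⟨(j + i - N), by omega⟩
    have h1 := H.antiP 0 le_rfl N
    have h2 := H.antiP' (0 + N) (by positivity) d
    have h5 := H.antiN' (k + i) (by omega) i
    rw [add_sub_cancel_right] at h5
    rw [hd]
    have h4 : w (0 + N) ≤ (1 / 16 : ℝ) ^ N * w 0 := by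
      calc w (0 + N) = (1 / 16 : ℝ) ^ N * (16 ^ N * w (0 + N)) := by
            rw [← mul_assoc, h16, one_mul]
        _ ≤ _ := by gcongr
    have h6 := H.wle 0
    nlinarith

lemma ratio_prod (k j : ℤ) (η : ℝ) (h : ∀ i : ℕ, w (j + i) ≤ η * w (k + i)) (r : ℕ) :
    β (j + r) * β k ≤ η ^ r * (β (k + r) * β j) := by
  induction r with
  | zero => simp [mul_comm]
  | succ r ih =>
    have e : j + ((r + 1 : ℕ) : ℤ) = j + r + 1 := by push_cast; ring
    have e' : k + ((r + 1 : ℕ) : ℤ) = k + r + 1 := by push_cast; ring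
    rw [e, e', H.step, H.step, pow_succ]
    have h2 := h r
    have h3 := H.wpos (j + r)
    have h4 := H.βpos (j + r)
    have h5 := H.βpos k
    calc w (j + r) * β (j + r) * β k = w (j + r) * (β (j + r) * β k) := by ring
      _ ≤ (η * w (k + r)) * (η ^ r * (β (k + r) * β j)) :=
          mul_le_mul h2 ih (by positivity) (h3.le.trans h2)
      _ = _ := by ring

/-- decay on the negative side beats every exponential -/
lemma tendsto_neg (k : ℤ) (ρ : ℝ) (hρ : 0 < ρ) :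
    Tendsto (fun s : ℕ => ρ ^ s / β (k - s)) atTop (𝓝 0) := by
  apply Summable.tendsto_atTop_zero
  apply summable_of_ratio_norm_eventually_le (r := 1 / 2) (by norm_num)
  obtain ⟨N, hN⟩ := exists_pow_lt_of_lt_one (show 0 < 1 / (2 * ρ) by positivity)
    (by norm_num : (1 / 16 : ℝ) < 1)
  filter_upwards [eventually_ge_atTop (N + k.natAbs)] with s hs
  have h16 : (1 / 16 : ℝ) ^ N * 16 ^ N = 1 := by rw [← mul_pow]; norm_num
  have e : k - s = k - ((s + 1 : ℕ) : ℤ) + 1 := by push_cast; ring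
  have hstep := H.step (k - ((s + 1 : ℕ) : ℤ))
  rw [← e] at hstep
  obtain ⟨d, hd⟩ : ∃ d : ℕ, k - ((s + 1 : ℕ) : ℤ) = -1 - N - d := ⟨(s - k - N).toNat, by omega⟩
  have h1 := H.antiN (-1) (by norm_num) N
  have h2 := H.antiN' (-1 - N) (by omega) d
  have h6 := H.wle (-1)
  have h4 : w (-1 - N) ≤ (1 / 16 : ℝ) ^ N * w (-1) := by
    calc w (-1 - N) = (1 / 16 : ℝ) ^ N * (16 ^ N * w (-1 - N)) := by
          rw [← mul_assoc, h16, one_mul]
      _ ≤ _ := by gcongr
  have hp : (0 : ℝ) < (1 / 16 : ℝ) ^ N := by positivity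
  have h7 : w (k - ((s + 1 : ℕ) : ℤ)) ≤ 1 / (2 * ρ) := by
    rw [hd]; nlinarith
  have hb1 := H.βpos (k - ((s + 1 : ℕ) : ℤ))
  have hb2 := H.βpos (k - s)
  have hw := H.wpos (k - ((s + 1 : ℕ) : ℤ))
  rw [Real.norm_of_nonneg (by positivity), Real.norm_of_nonneg (by positivity), hstep]
  rw [le_div_iff₀ (by positivity)] at h7
  rw [pow_succ, div_le_iff₀ hb1]
  have hρs : 0 < ρ ^ s := by positivity
  have : 1 / 2 * (ρ ^ s / (w (k - ((s + 1 : ℕ) : ℤ)) * β (k - ((s + 1 : ℕ) : ℤ)))) *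
      β (k - ((s + 1 : ℕ) : ℤ)) = ρ ^ s * (1 / (2 * w (k - ((s + 1 : ℕ) : ℤ)))) := by
    field_simp
  rw [this]
  gcongr
  rw [le_div_iff₀ (by positivity)]
  nlinarith

/-- the Newton polygon estimate for the weight itself -/
lemma theta_le (j l : ℕ) :
    β l / (4 * w j) ^ l ≤ β j / (4 * w j) ^ j * (1 / 4 : ℝ) ^ ((l : ℤ) - j).natAbs := by
  have hw := H.wpos j
  rcases le_total j l with h | h
  · obtain ⟨r, rfl⟩ := Nat.exists_eq_add_of_le h
    have e : (((j + r : ℕ) : ℤ) - j).natAbs = r := by omega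
    rw [e]
    have h1 := H.β_add_le j (w j) r (fun i _ => H.antiP' j (by positivity) i)
    push_cast
    rw [pow_add, div_le_iff₀ (by positivity)]
    calc β (j + r) ≤ w j ^ r * β j := h1
      _ = _ := by rw [mul_pow, mul_pow, one_div, inv_pow]; field_simp
  · obtain ⟨r, rfl⟩ := Nat.exists_eq_add_of_le h
    have e : ((l : ℤ) - ((l + r : ℕ) : ℤ)).natAbs = r := by omega
    rw [e]
    have h1 := H.le_β_add l (16 * w ((l + r : ℕ) : ℤ)) (by positivity) r (fun i hi => by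
      obtain ⟨d, hd⟩ : ∃ d : ℕ, ((l + r : ℕ) : ℤ) = l + i + d + 1 := ⟨r - i - 1, by omega⟩
      rw [hd]
      have h2 := H.decP (l + i + d) (by positivity)
      have h3 := H.antiP' (l + i) (by positivity) d
      linarith)
    have e2 : (l : ℤ) + r = ((l + r : ℕ) : ℤ) := by push_cast; ring
    rw [e2] at h1
    set W := w ((l + r : ℕ) : ℤ) with hW
    have hb := H.βpos l
    calc β l / (4 * W) ^ l
        = ((16 * W) ^ r * β l) / (4 * W) ^ (l + r) * (1 / 4 : ℝ) ^ r := by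
          have : (16 * W) ^ r = 4 ^ r * (4 * W) ^ r := by rw [← mul_pow]; congr 1; ring
          rw [this, pow_add, one_div, inv_pow]; field_simp
      _ ≤ _ := by gcongr

lemma theta_anti (j r s : ℕ) :
    β ((j + r + s : ℕ) : ℤ) / (4 * w j) ^ (j + r + s) ≤ β (j + r) / (4 * w j) ^ (j + r) := by
  have hw := H.wpos j
  have h1 := H.β_add_le (j + r) (4 * w j) s (fun i _ => by
    have := H.antiP' j (by positivity) (r + i)
    push_cast at this
    rw [add_assoc]
    linarith)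
  push_cast
  rw [pow_add _ (j + r), div_le_div_iff₀ (by positivity) (by positivity)]
  calc β (j + r + s) * (4 * w j) ^ (j + r) ≤ ((4 * w j) ^ s * β (j + r)) * (4 * w j) ^ (j + r) := by
        gcongr
    _ = _ := by ring

/-- estimate for the terms with both indices negative -/
lemma neg_case (ρ : ℝ) (hρ : 1 ≤ ρ) (i m : ℕ) (hi : 1 ≤ i) (hm : 1 ≤ m) :
    β (-i) / ρ ^ i ≤ β 0 * (1 / 2 : ℝ) ^ i ∨
      ρ ^ m * β (-i) / β (-i - m) ≤ ρ * (1 / 2 : ℝ) ^ i := by
  have hρ0 : 0 < ρ := by linarith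
  by_cases h : 2 / ρ ≤ w (-i)
  · left
    have h1 := H.le_β_add (-i) (2 / ρ) (by positivity) i (fun t ht => by
      have := H.antiN' (-i + t) (by omega) t
      rw [add_sub_cancel_right] at this
      linarith)
    rw [neg_add_cancel] at h1
    calc β (-i) / ρ ^ i = ((2 / ρ) ^ i * β (-i)) * (1 / 2 : ℝ) ^ i := by
          rw [div_pow, one_div, inv_pow]; field_simp
      _ ≤ _ := by gcongr
  · right
    push Not at h
    obtain ⟨m', rfl⟩ : ∃ m', m = m' + 1 := ⟨m - 1, by omega⟩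
    have hd := H.decN (-i) (by omega)
    have h2 : w (-i - 1) ≤ 1 / ρ := by
      have : 2 / ρ = 2 * (1 / ρ) := by ring
      have h3 : 0 < 1 / ρ := by positivity
      linarith
    have h1 := H.β_add_le (-i - ((m' + 1 : ℕ) : ℤ)) (1 / ρ) m' (fun t ht => by
      obtain ⟨d, hd⟩ : ∃ d : ℕ, -(i : ℤ) - ((m' + 1 : ℕ) : ℤ) + t = -i - 1 - d :=
        ⟨m' - t, by omega⟩
      rw [hd]
      exact (H.antiN' (-i - 1) (by omega) d).trans h2)
    have e : -(i : ℤ) - ((m' + 1 : ℕ) : ℤ) + m' = -i - 1 := by push_cast; ring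
    rw [e] at h1
    have h3 := H.step (-i - 1)
    rw [sub_add_cancel] at h3
    have h4 := H.antiN (-1) (by norm_num) i
    have e2 : (-1 : ℤ) - i = -i - 1 := by ring
    rw [e2] at h4
    have h5 := H.wle (-1)
    have h6 : w (-i - 1) ≤ (1 / 2 : ℝ) ^ i := by
      have h7 : (2 : ℝ) ^ i ≤ 16 ^ i := by gcongr; norm_num
      have h8 := H.wpos (-i - 1)
      rw [one_div, inv_pow, ← one_div, le_div_iff₀ (by positivity)]
      nlinarith
    have hb := H.βpos (-i - ((m' + 1 : ℕ) : ℤ))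
    have h8 := H.wpos (-i - 1)
    rw [div_le_iff₀ hb, h3]
    calc ρ ^ (m' + 1) * (w (-i - 1) * β (-i - 1))
        ≤ ρ ^ (m' + 1) * ((1 / 2 : ℝ) ^ i * ((1 / ρ) ^ m' * β (-i - ((m' + 1 : ℕ) : ℤ)))) := by
          have := H.βpos (-i - 1)
          gcongr
      _ = _ := by rw [pow_succ, one_div ρ, inv_pow]; field_simp

end Adm

end Vale.Agent.P131
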