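import Vale.Agent.P131.Half

open Filter Topology

namespace Vale.Agent.P131

/-- one candidate value for the clock -/
def tm (j : ℕ → ℕ) (m i : ℕ) : ℕ := if 2 ^ (i + 1) ≤ m + j i then m + j i + 2 ^ i else m

/-- the clock: a strictly increasing function of `m` that only sees the tail of `j` -/
noncomputable def clock (j : ℕ → ℕ) (m : ℕ) : ℕ := ⨆ i, tm j m i

lemma tm_le (j : ℕ → ℕ) (hj : ∀ i, j i < 2 ^ i) (m i : ℕ) : tm j m i ≤ 3 * m := by
  unfold tm
  have := hj i
  split_ifs with h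
  · rw [pow_succ] at h; omega
  · omega

lemma tm_bdd (j : ℕ → ℕ) (hj : ∀ i, j i < 2 ^ i) (m : ℕ) : BddAbove (Set.range (tm j m)) :=
  ⟨3 * m, by rintro _ ⟨i, rfl⟩; exact tm_le j hj m i⟩

lemma tm_le_clock (j : ℕ → ℕ) (hj : ∀ i, j i < 2 ^ i) (m i : ℕ) : tm j m i ≤ clock j m :=
  le_ciSup (tm_bdd j hj m) i

lemma le_clock (j : ℕ → ℕ) (hj : ∀ i, j i < 2 ^ i) (m : ℕ) : m ≤ clock j m := by
  refine le_trans ?_ (tm_le_clock j hj m 0)
  unfold tm; split_ifs <;> omega

lemma clock_succ (j : ℕ → ℕ) (hj : ∀ i, j i < 2 ^ i) (m : ℕ) :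
    clock j m + 1 ≤ clock j (m + 1) := by
  have h1 : clock j m ≤ clock j (m + 1) - 1 := by
    apply ciSup_le
    intro i
    have h2 := tm_le_clock j hj (m + 1) i
    have h3 : tm j m i + 1 ≤ tm j (m + 1) i := by
      unfold tm; split_ifs <;> omega
    omega
  have h2 := le_clock j hj (m + 1)
  omega

lemma clock_shift (j j' : ℕ → ℕ) (hj : ∀ i, j i < 2 ^ i) (hj' : ∀ i, j' i < 2 ^ i) (i₀ : ℕ)
    (h : ∀ i, i₀ ≤ i → j' i = j i + 1) (m : ℕ) (hm : 2 ^ (i₀ + 1) ≤ m) :
    clock j' m = clock j (m + 1) := by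
  have h0 := h i₀ le_rfl
  have hpos : 0 < 2 ^ i₀ := by positivity
  have key : ∀ i, i < i₀ → 2 * 2 ^ i ≤ 2 ^ i₀ := fun i hi => by
    rw [← pow_succ']; exact Nat.pow_le_pow_right (by norm_num) hi
  apply le_antisymm
  · apply ciSup_le
    intro i
    by_cases hi : i₀ ≤ i
    · refine le_trans ?_ (tm_le_clock j hj (m + 1) i)
      have := h i hi
      unfold tm; split_ifs <;> omega
    · refine le_trans ?_ (tm_le_clock j hj (m + 1) i₀)
      have := key i (by omega)
      have := hj' i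
      unfold tm; split_ifs <;> omega
  · apply ciSup_le
    intro i
    have hb : m + 1 + j i₀ + 2 ^ i₀ ≤ clock j' m := by
      refine le_trans ?_ (tm_le_clock j' hj' m i₀)
      unfold tm; split_ifs <;> omega
    by_cases hi : i₀ ≤ i
    · have h2 := tm_le_clock j' hj' m i
      have := h i hi
      revert h2
      unfold tm; split_ifs <;> omega
    · have := key i (by omega)
      have := hj i
      unfold tm; split_ifs <;> omega

/-- the decay profile -/
noncomputable def prof (t : ℕ) : ℝ := (1 / 16 : ℝ) ^ (t ^ 2)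

lemma prof_pos (t : ℕ) : 0 < prof t := by unfold prof; positivity

lemma prof_le_one (t : ℕ) : prof t ≤ 1 := pow_le_one₀ (by norm_num) (by norm_num)

lemma prof_step {s t : ℕ} (h : s + 1 ≤ t) : 16 * prof t ≤ prof s := by
  unfold prof
  have h1 : s ^ 2 + 1 ≤ t ^ 2 := by nlinarith
  calc 16 * (1 / 16 : ℝ) ^ (t ^ 2) ≤ 16 * (1 / 16 : ℝ) ^ (s ^ 2 + 1) := by
        gcongr 16 * ?_
        exact pow_le_pow_of_le_one (by norm_num) (by norm_num) h1
    _ = _ := by rw [pow_succ]; ring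

lemma prof_anti {s t : ℕ} (h : s ≤ t) : prof t ≤ prof s :=
  pow_le_pow_of_le_one (by norm_num) (by norm_num) (Nat.pow_le_pow_left h 2)

lemma prof_tendsto (σ : ℝ) (hσ : 0 < σ) : Tendsto (fun l : ℕ => prof l * σ ^ l) atTop (𝓝 0) := by
  obtain ⟨N, hN⟩ := exists_pow_lt_of_lt_one (show 0 < 1 / (2 * σ) by positivity)
    (by norm_num : (1 / 16 : ℝ) < 1)
  have h := tendsto_pow_atTop_nhds_zero_of_lt_one (r := (1 / 2 : ℝ)) (by norm_num) (by norm_num)
  refine squeeze_zero' (Eventually.of_forall fun l => by have := prof_pos l; positivity) ?_ h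
  filter_upwards [eventually_ge_atTop N] with l hl
  unfold prof
  rw [sq, pow_mul, ← mul_pow]
  gcongr
  have h1 : (1 / 16 : ℝ) ^ l ≤ (1 / 16) ^ N := pow_le_pow_of_le_one (by norm_num) (by norm_num) hl
  have h2 : (1 / 16 : ℝ) ^ l ≤ 1 / (2 * σ) := by linarith
  rw [le_div_iff₀ (by positivity)] at h2
  linarith

/-- the weights of the bilateral shift -/
noncomputable def wt (jp jn : ℕ → ℕ) (n : ℤ) : ℝ :=
  if 0 ≤ n then prof (clock jp n.toNat) else prof (clock jn (-1 - n).toNat)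

/-- the cumulative weights -/
noncomputable def cum (w : ℤ → ℝ) (n : ℤ) : ℝ :=
  if 0 ≤ n then ∏ i ∈ Finset.range n.toNat, w i
  else (∏ i ∈ Finset.range (-n).toNat, w (-1 - i))⁻¹

lemma cum_pos (w : ℤ → ℝ) (hw : ∀ n, 0 < w n) (n : ℤ) : 0 < cum w n := by
  unfold cum
  split_ifs
  · exact Finset.prod_pos fun i _ => hw _
  · exact inv_pos.2 (Finset.prod_pos fun i _ => hw _)

lemma cum_step (w : ℤ → ℝ) (hw : ∀ n, 0 < w n) (n : ℤ) : cum w (n + 1) = w n * cum w n := by
  unfold cum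
  by_cases h : 0 ≤ n
  · obtain ⟨k, rfl⟩ := Int.eq_ofNat_of_zero_le h
    have e : ((k : ℤ) + 1).toNat = k + 1 := by omega
    rw [if_pos (by omega), if_pos h, e, Finset.prod_range_succ, Int.toNat_natCast, mul_comm]
  · obtain ⟨k, rfl⟩ : ∃ k : ℕ, n = -1 - k := ⟨(-1 - n).toNat, by omega⟩
    have e : (-(-1 - (k : ℤ))).toNat = k + 1 := by omega
    have hp : 0 < ∏ i ∈ Finset.range k, w (-1 - i) := Finset.prod_pos fun i _ => hw _
    have hk := hw (-1 - k)
    rw [if_neg h, e, Finset.prod_range_succ]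
    by_cases hk0 : k = 0
    · subst hk0
      simp only [Nat.cast_zero, sub_zero] at hk ⊢
      simp [hk.ne']
    · have e' : (-(-1 - (k : ℤ) + 1)).toNat = k := by omega
      rw [if_neg (by omega), e']
      field_simp

lemma wt_pos (jp jn : ℕ → ℕ) (n : ℤ) : 0 < wt jp jn n := by
  unfold wt; split_ifs <;> exact prof_pos _

lemma wt_adm (jp jn : ℕ → ℕ) (hp : ∀ i, jp i < 2 ^ i) (hn : ∀ i, jn i < 2 ^ i) :
    Adm (cum (wt jp jn)) (wt jp jn) where
  βpos := cum_pos _ (wt_pos jp jn)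
  wpos := wt_pos jp jn
  step := cum_step _ (wt_pos jp jn)
  wle n := by unfold wt; split_ifs <;> exact prof_le_one _
  decP n h := by
    unfold wt
    rw [if_pos h, if_pos (by omega)]
    have e : (n + 1).toNat = n.toNat + 1 := by omega
    rw [e]
    exact prof_step (clock_succ jp hp _)
  decN n h := by
    unfold wt
    rw [if_neg (by omega), if_neg (by omega)]
    have e : (-1 - (n - 1)).toNat = (-1 - n).toNat + 1 := by omega
    rw [e]
    exact prof_step (clock_succ jn hn _)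
  supP σ hσ := by
    refine squeeze_zero (fun l => by have := wt_pos jp jn l; positivity) (fun l => ?_)
      (prof_tendsto σ hσ)
    gcongr
    unfold wt
    rw [if_pos (by omega), Int.toNat_natCast]
    exact prof_anti (le_clock jp hp l)
  supN σ hσ := by
    refine squeeze_zero (fun l => by have := wt_pos jp jn (-1 - l); positivity) (fun l => ?_)
      (prof_tendsto σ hσ)
    gcongr
    unfold wt
    have e : (-1 - (-1 - (l : ℤ))).toNat = l := by omega
    rw [if_neg (by omega), e]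
    exact prof_anti (le_clock jn hn l)

lemma wt_shift (jp jn jp' jn' : ℕ → ℕ) (hp : ∀ i, jp i < 2 ^ i) (hn : ∀ i, jn i < 2 ^ i)
    (hp' : ∀ i, jp' i < 2 ^ i) (hn' : ∀ i, jn' i < 2 ^ i) (i₀ : ℕ)
    (h1 : ∀ i, i₀ ≤ i → jp i = jp' i + 1) (h2 : ∀ i, i₀ ≤ i → jn' i = jn i + 1) :
    ∃ N : ℕ, ∀ n : ℤ, N ≤ n.natAbs → wt jp jn n = wt jp' jn' (n + 1) := by
  refine ⟨2 ^ (i₀ + 1) + 2, fun n hn0 => ?_⟩
  have hpos : 0 < 2 ^ i₀ := by positivity
  unfold wt
  by_cases h : 0 ≤ n
  · have e : (n + 1).toNat = n.toNat + 1 := by omega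
    rw [if_pos h, if_pos (by omega), e, clock_shift jp' jp hp' hp i₀ h1 _ (by omega)]
  · have e : (-1 - n).toNat = (-1 - (n + 1)).toNat + 1 := by omega
    rw [if_neg h, if_neg (by omega), e, clock_shift jn jn' hn hn' i₀ h2 _ (by omega)]

lemma ratio_bdd {β w β' w' : ℤ → ℝ} (H : Adm β w) (H' : Adm β' w') (N : ℕ)
    (h : ∀ n : ℤ, N ≤ n.natAbs → w n = w' (n + 1)) :
    ∃ K : ℕ, ∀ n : ℤ, β n / β' (n + 1) ≤ K := by
  set r : ℤ → ℝ := fun n => β n / β' (n + 1) with hr
  have hstep : ∀ n : ℤ, N ≤ n.natAbs → r (n + 1) = r n := by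
    intro n hn
    simp only [hr]
    rw [H.step, H'.step (n + 1), h n hn]
    have := H'.wpos (n + 1)
    have := H'.βpos (n + 1)
    field_simp
  have hup : ∀ s : ℕ, r (N + s) = r N := by
    intro s
    induction s with
    | zero => simp
    | succ s ih =>
      have e : (N : ℤ) + ((s + 1 : ℕ) : ℤ) = N + s + 1 := by push_cast; ring
      rw [e, hstep _ (by omega), ih]
  have hdown : ∀ s : ℕ, r (-N - s) = r (-N) := by
    intro s
    induction s with
    | zero => simp
    | succ s ih =>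
      have e : -(N : ℤ) - s = -N - ((s + 1 : ℕ) : ℤ) + 1 := by push_cast; ring
      rw [← ih, e, hstep _ (by omega)]
  obtain ⟨M, hM⟩ := ((Set.finite_Icc (-(N : ℤ)) N).image r).bddAbove
  obtain ⟨K, hK⟩ := exists_nat_ge M
  refine ⟨K, fun n => le_trans ?_ hK⟩
  change r n ≤ M
  by_cases h1 : (N : ℤ) ≤ n
  · obtain ⟨s, rfl⟩ : ∃ s : ℕ, n = N + s := ⟨(n - N).toNat, by omega⟩
    rw [hup]
    exact hM ⟨N, ⟨by omega, le_rfl⟩, rfl⟩
  · by_cases h2 : n ≤ -(N : ℤ)
    · obtain ⟨s, rfl⟩ : ∃ s : ℕ, n = -N - s := ⟨(-N - n).toNat, by omega⟩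
      rw [hdown]
      exact hM ⟨-N, ⟨le_rfl, by omega⟩, rfl⟩
    · exact hM ⟨n, ⟨by omega, by omega⟩, rfl⟩

section Meas

variable {X : Type*} [MeasurableSpace X]

lemma measurable_clock (j : X → ℕ → ℕ) (hj : ∀ i, Measurable fun x => j x i) (m : ℕ) :
    Measurable fun x => clock (j x) m := by
  unfold clock
  apply Measurable.iSup
  intro i
  exact (measurable_of_countable
    (fun a : ℕ => if 2 ^ (i + 1) ≤ m + a then m + a + 2 ^ i else m)).comp (hj i)

lemma measurable_wt (jp jn : X → ℕ → ℕ) (hp : ∀ i, Measurable fun x => jp x i)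
    (hn : ∀ i, Measurable fun x => jn x i) (n : ℤ) :
    Measurable fun x => wt (jp x) (jn x) n := by
  unfold wt
  split_ifs
  · exact (measurable_of_countable prof).comp (measurable_clock jp hp _)
  · exact (measurable_of_countable prof).comp (measurable_clock jn hn _)

lemma measurable_cum (w : X → ℤ → ℝ) (hw : ∀ n, Measurable fun x => w x n) (n : ℤ) :
    Measurable fun x => cum (w x) n := by
  unfold cum
  split_ifs
  · exact Finset.measurable_prod _ fun i _ => hw _
  · exact (Finset.measurable_prod _ fun i _ => hw _).inv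

end Meas

end Vale.Agent.P131
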